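import Vale.Agent.P069.Defs
import Vale.Agent.P069.Main

namespace Vale.Agent.Results.P069.Counterexample

open Vale.Agent.P069

theorem result : ∃ (X : Type) (_ : NormedAddCommGroup X) (_ : NormedSpace ℝ X),
    CompleteSpace X ∧ TopologicalSpace.SeparableSpace X ∧ ¬ FiniteDimensional ℝ X ∧
    Function.Surjective (NormedSpace.inclusionInDoubleDual ℝ X) ∧
    (∀ t : ℝ, 0 < t → ((√(1 + t ^ 2 / 16) - 1 : ℝ) : EReal) ≤ amucModulus (normSeminorm ℝ X) t) ∧
    AMUCRenormable X ∧ ¬ AUCRenormable X :=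
  Vale.Agent.P069.main

end Vale.Agent.Results.P069.Counterexample
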